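import Vale.Agent.P038.Transitive

namespace Vale.Agent.Results.P038.VertexTransitive

/-- Seymour's second neighbourhood inequality holds at every vertex of every finite
oriented graph whose automorphisms act transitively on the vertices.
`adj u w` is the arc `u → w`; `hasym` says that there are no loops and no opposite arcs. -/
theorem result {V : Type*} [Fintype V] [DecidableEq V] (adj : V → V → Prop) [DecidableRel adj]
    (hasym : ∀ u w, adj u w → ¬ adj w u)
    (htrans : ∀ v w : V, ∃ σ : Equiv.Perm V, (∀ x y, adj (σ x) (σ y) ↔ adj x y) ∧ σ v = w)
    (v : V) :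
    (Finset.univ.filter (fun u => adj v u)).card ≤
      (Finset.univ.filter (fun w => w ≠ v ∧ ¬ adj v w ∧ ∃ u, adj v u ∧ adj u w)).card :=
  Vale.Agent.P038.transitive_ssnc adj hasym htrans v

end Vale.Agent.Results.P038.VertexTransitive
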